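import Crest.Agent.R264.Alg.GS

/-! Block Sm: Noether normalisation; an irreducible variety is a finite map to `ℂ^d`, a covering off `{h = 0}`. -/

set_option autoImplicit false
set_option linter.unusedSectionVars false
open Set Filter Topology MvPolynomial

namespace Crest.Agent.R264

/-- near `z` the set `Z` is the graph of a section of `p` -/
def SmCov {E F : Type} [NormedAddCommGroup E] [NormedSpace ℂ E] [NormedAddCommGroup F] [NormedSpace ℂ F]
    (Z : Set E) (p : E → F) (z : E) : Prop :=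
  ∃ Γ : F → E, AnalyticAt ℂ Γ (p z) ∧ Γ (p z) = z ∧ (∀ᶠ x in 𝓝 (p z), p (Γ x) = x ∧ Γ x ∈ Z) ∧
    ∀ᶠ z' in 𝓝 z, z' ∈ Z → Γ (p z') = z'

theorem sm_an_aeval {σ : Type} [Fintype σ] (f : MvPolynomial σ ℂ) :
    AnalyticOnNhd ℂ (fun z : σ → ℂ => aeval z f) univ := by
  intro z _
  induction f using MvPolynomial.induction_on with
  | C a => simpa using analyticAt_const
  | add f g hf hg => simp only [map_add]; exact hf.add hg
  | mul_X f i hf =>
    simp only [map_mul, aeval_X]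
    exact hf.mul ((ContinuousLinearMap.proj (R := ℂ) (φ := fun _ : σ => ℂ) i).analyticAt z)

theorem sm_noe {N : ℕ} {𝔭 : Ideal (MvPolynomial (Fin N) ℂ)} (hp : 𝔭.IsPrime) :
    ∃ (ι : Type) (_ : Fintype ι) (p : (Fin N → ℂ) → ι → ℂ) (h : (ι → ℂ) → ℂ) (q : MvPolynomial (Fin N) ℂ),
      AnalyticOnNhd ℂ p univ ∧ AnalyticOnNhd ℂ h univ ∧ (∃ w, h w ≠ 0) ∧ q ∉ 𝔭 ∧ (∀ z, aeval z q = h (p z)) ∧
      (∀ w, (zeroLocus ℂ 𝔭 ∩ p ⁻¹' {w}).Finite) ∧
      ∀ z ∈ zeroLocus ℂ 𝔭, h (p z) ≠ 0 → SmCov (zeroLocus ℂ 𝔭) p z := by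
  classical
  obtain ⟨d, -, g₀, hinj, hint⟩ := exists_integral_inj_algHom_of_quotient 𝔭 hp.ne_top
  let B : Finset (Fin d ⊕ Fin N) := Finset.univ.map ⟨Sum.inl, Sum.inl_injective⟩
  let e : Fin d ≃ B := Equiv.ofBijective (fun i => ⟨Sum.inl i, by simp [B]⟩) ⟨fun i j h => by simpa using h, by
    rintro ⟨x, hx⟩
    obtain ⟨i, -, rfl⟩ := Finset.mem_map.1 hx
    exact ⟨i, rfl⟩⟩
  have he : ∀ i, (e i : Fin d ⊕ Fin N) = Sum.inl i := fun i => rfl
  let g : MvPolynomial B ℂ →ₐ[ℂ] MvPolynomial (Fin N) ℂ ⧸ 𝔭 := g₀.comp (rename e.symm)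
  have ginj : Function.Injective g := hinj.comp (rename_injective _ e.symm.injective)
  have gint : ∀ a, ∃ f : Polynomial (MvPolynomial B ℂ), f.Monic ∧ Polynomial.eval₂ g.toRingHom a f = 0 := by
    intro a
    obtain ⟨f, hf, h0⟩ := hint a
    refine ⟨f.map (rename e : MvPolynomial (Fin d) ℂ →ₐ[ℂ] _).toRingHom, hf.map _, ?_⟩
    rw [Polynomial.eval₂_map, ← h0]
    congr 1
    ext1
    · ext; simp [g]
    · simp [g]
  choose y hy using fun i : B => Ideal.Quotient.mk_surjective (g (X i))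
  let ψ : MvPolynomial (Fin d ⊕ Fin N) ℂ →ₐ[ℂ] MvPolynomial (Fin N) ℂ := aeval (Sum.elim (fun i => y (e i)) X)
  let φ := (Ideal.Quotient.mkₐ ℂ 𝔭).comp ψ
  have hg : ∀ h, g h = Ideal.Quotient.mk 𝔭 (aeval y h) := by
    intro h
    have : g = (Ideal.Quotient.mkₐ ℂ 𝔭).comp (aeval y) := by ext i; simp [hy]
    rw [this]; rfl
  have hψ : ψ.comp (rename Subtype.val) = aeval y := by
    ext1 i
    obtain ⟨i, rfl⟩ := e.surjective i
    simp [ψ, he]
  have hφ : φ.comp (rename Subtype.val) = g := by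
    ext1 i
    rw [hg, ← hψ]; rfl
  have hP : (RingHom.ker φ).IsPrime := RingHom.ker_isPrime _
  obtain ⟨h1, G, hG, h2⟩ := gen_smooth (𝕃 := ℂ) hP B
    (fun h hh => ginj (by rw [← hφ, map_zero]; exact hh)) fun j => by
      obtain ⟨f, hf, h0⟩ := gint (φ (X j))
      refine ⟨f, hf.ne_zero, ?_⟩
      change φ.toRingHom _ = 0
      rw [Polynomial.hom_eval₂, ← h0, ← hφ]; rfl
  obtain ⟨h, hh, hm⟩ := h1 G hG
  let p : (Fin N → ℂ) → B → ℂ := fun z i => aeval z (y i)
  let j : (Fin N → ℂ) → Fin d ⊕ Fin N → ℂ := fun z => Sum.elim (fun i => p z (e i)) z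
  have hj : ∀ z f, aeval (j z) f = aeval z (ψ f) := by
    intro z f
    have : aeval (j z) = (aeval z).comp ψ := by ext (i | i) <;> simp [j, ψ, p]
    rw [this]; rfl
  have hjB : ∀ z, (fun i : B => j z i) = p z := by
    intro z; ext i
    obtain ⟨i, rfl⟩ := e.surjective i
    rfl
  have hjZ : ∀ z ∈ zeroLocus ℂ 𝔭, ∀ f ∈ RingHom.ker φ, aeval (j z) f = 0 := fun z hz f hf => by
    rw [hj]; exact hz _ (Ideal.Quotient.eq_zero_iff_mem.1 hf)
  have hZj : ∀ u : Fin d ⊕ Fin N → ℂ, (∀ f ∈ RingHom.ker φ, aeval u f = 0) →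
      (u ∘ Sum.inr ∈ zeroLocus ℂ 𝔭) ∧ p (u ∘ Sum.inr) = fun i : B => u i := by
    intro u hu
    have k1 : ∀ f, ψ (rename Sum.inr f) = f := by
      intro f
      have : ψ.comp (rename Sum.inr) = AlgHom.id ℂ _ := by ext i; simp [ψ]
      exact DFunLike.congr_fun this f
    refine ⟨fun f hf => ?_, ?_⟩
    · rw [← aeval_rename]
      exact hu _ (Ideal.Quotient.eq_zero_iff_mem.2 ((k1 f).symm ▸ hf : ψ (rename Sum.inr f) ∈ 𝔭))
    · ext i
      obtain ⟨i, rfl⟩ := e.surjective i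
      have := hu (rename Sum.inr (y (e i)) - X (Sum.inl i)) (by
        change Ideal.Quotient.mk 𝔭 (ψ _) = 0
        rw [map_sub, k1]; simp [ψ])
      rw [map_sub, aeval_rename, aeval_X, sub_eq_zero] at this
      exact this
  have hpa : AnalyticOnNhd ℂ p univ := fun z _ => analyticAt_pi_iff.2 fun i => sm_an_aeval _ z trivial
  have hq : ∀ z, aeval z (aeval y h) = aeval (p z) h := fun z => by
    have : aeval (p z) = (aeval z).comp (aeval y) := by ext i; simp [p]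
    rw [this]; rfl
  refine ⟨B, inferInstance, p, fun w => aeval w h, aeval y h, hpa, sm_an_aeval h, ?_, fun h0 => hh (ginj ?_), hq,
    fun w => ?_, fun z hz h0 => ?_⟩
  · by_contra! h0
    exact hh (MvPolynomial.funext fun w => by simpa using h0 w)
  · rw [hg, map_zero]; exact Ideal.Quotient.eq_zero_iff_mem.2 h0
  · choose f hf h0 using fun i : Fin N => gint (Ideal.Quotient.mk 𝔭 (X i))
    refine (Set.Finite.pi' fun i => ((f i).map (aeval w : MvPolynomial B ℂ →ₐ[ℂ] ℂ).toRingHom).roots.finite_toSet).subset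
      ?_
    rintro z ⟨hz, rfl⟩ i
    let ev : MvPolynomial (Fin N) ℂ ⧸ 𝔭 →+* ℂ := Ideal.Quotient.lift 𝔭 (aeval z : _ →ₐ[ℂ] ℂ).toRingHom hz
    have k := congrArg ev (h0 i)
    rw [Polynomial.hom_eval₂, map_zero] at k
    have k2 : ev.comp g.toRingHom = (aeval (p z) : MvPolynomial B ℂ →ₐ[ℂ] ℂ).toRingHom := by
      ext1
      · ext a; simp [ev, hg]
      · simp [ev, hg, p]
    change z i ∈ Polynomial.roots _
    rw [Polynomial.mem_roots ((hf i).map _).ne_zero, Polynomial.IsRoot, Polynomial.eval_map, ← k2, ← k]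
    simp [ev]
  · obtain ⟨a, ha, b, hb, hab⟩ := Submodule.mem_sup.1 hm
    obtain ⟨c, rfl⟩ := Ideal.mem_span_singleton'.1 hb
    have k1 : aeval (j z) G ≠ 0 := by
      intro k
      apply h0
      have := congrArg (aeval (j z)) hab
      rw [map_add, map_mul, k, hjZ z hz a ha, aeval_rename] at this
      rw [← hjB]
      exact this.symm.trans (by simp)
    obtain ⟨Γ, g1, g2, g3, g4⟩ := h2 (j z) (hjZ z hz) k1
    rw [hjB] at g1 g2 g3
    have hjc : Continuous j := continuous_pi fun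
      | Sum.inl i => (continuous_apply (e i)).comp (continuousOn_univ.1 hpa.continuousOn)
      | Sum.inr i => continuous_apply i
    refine ⟨fun x => Γ x ∘ Sum.inr, analyticAt_pi_iff.2 fun i => analyticAt_pi_iff.1 g1 _,
      congrArg (· ∘ Sum.inr) g2,
      g3.mono fun x hx => ⟨(hZj _ hx.2).2.trans (funext hx.1), (hZj _ hx.2).1⟩, ?_⟩
    filter_upwards [hjc.continuousAt.eventually g4] with z' k hz'
    have := k (hjZ z' hz')
    rw [hjB] at this
    rw [this]; rfl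

end Crest.Agent.R264
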