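import Crest.Agent.R264.Base.Rem
import Crest.Agent.R264.Sm.Noe

/-! Block Sm: a Schwarz lemma at an arbitrary point of an algebraic set. -/

set_option autoImplicit false
set_option linter.unusedSectionVars false
open Set Filter Topology Metric

namespace Crest.Agent.R264

variable {E F : Type}
  [NormedAddCommGroup E] [NormedSpace ℂ E] [NormedSpace ℝ E] [IsScalarTower ℝ ℂ E] [FiniteDimensional ℂ E]
  [NormedAddCommGroup F] [NormedSpace ℂ F] [NormedSpace ℝ F] [IsScalarTower ℝ ℂ F] [FiniteDimensional ℂ F]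

theorem sm_fib {K W : Set E} (hK : IsCompact K) {p : E → F} (hp : Continuous p) {w₀ : F} (hW : IsOpen W)
    (h : ∀ z ∈ K, p z = w₀ → z ∈ W) : ∀ᶠ w in 𝓝 w₀, ∀ z ∈ K, p z = w → z ∈ W := by
  have h1 : w₀ ∈ (p '' (K \ W))ᶜ := fun ⟨z, hz, e⟩ => hz.2 (h z hz.1 e)
  filter_upwards [((hK.diff hW).image hp).isClosed.isOpen_compl.mem_nhds h1] with w hw z hz e
  by_contra k
  exact hw ⟨z, ⟨hz, k⟩, e⟩

theorem sm_cov_loc {K : Set E} (hK : IsCompact K) {p : E → F} (hp : Continuous p) {w₀ : F}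
    (h : ∀ z ∈ K, p z = w₀ → SmCov K p z) :
    ∃ (T : Finset E) (Γ : E → F → E), (∀ z ∈ T, AnalyticAt ℂ (Γ z) w₀) ∧
      ∀ᶠ w in 𝓝 w₀, InjOn (fun z => Γ z w) T ∧ K ∩ p ⁻¹' {w} = (fun z => Γ z w) '' T := by
  choose! Γ h1 h2 h3 h4 using h
  obtain ⟨T, t1, t2⟩ := (hK.inter_right (isClosed_singleton.preimage hp : IsClosed (p ⁻¹' {w₀}))).elim_nhds_subcover
    (fun z => interior {z' | z' ∈ K → Γ z (p z') = z'}) fun z hz => interior_mem_nhds.2 (h4 z hz.1 hz.2)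
  have k0 : ∀ z ∈ T, p z = w₀ := fun z hz => (t1 z hz).2
  have k1 : ∀ z ∈ T, AnalyticAt ℂ (Γ z) w₀ := fun z hz => k0 z hz ▸ h1 z (t1 z hz).1 (k0 z hz)
  have k2 : ∀ z ∈ T, Γ z w₀ = z := fun z hz => k0 z hz ▸ h2 z (t1 z hz).1 (k0 z hz)
  have k3 : ∀ᶠ w in 𝓝 w₀, ∀ z ∈ T, p (Γ z w) = w ∧ Γ z w ∈ K :=
    (eventually_all_finset T).2 fun z hz => k0 z hz ▸ h3 z (t1 z hz).1 (k0 z hz)
  have k4 : ∀ᶠ w in 𝓝 w₀, ∀ z ∈ T, ∀ z' ∈ T, z ≠ z' → Γ z w ≠ Γ z' w :=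
    (eventually_all_finset T).2 fun z hz => (eventually_all_finset T).2 fun z' hz' => by
      by_cases e : z = z'
      · exact Eventually.of_forall fun w k => (k e).elim
      · refine ((ContinuousAt.ne_iff_eventually_ne (k1 z hz).continuousAt (k1 z' hz').continuousAt).1 ?_).mono
          fun w k _ => k
        rwa [k2 z hz, k2 z' hz']
  refine ⟨T, Γ, k1, ?_⟩
  filter_upwards [k3, k4, sm_fib hK hp (isOpen_biUnion fun z _ => isOpen_interior) fun z hz e => t2 ⟨hz, e⟩]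
    with w l3 l4 l5
  refine ⟨fun z hz z' hz' e => by_contra fun k => l4 z hz z' hz' k e, Subset.antisymm ?_ ?_⟩
  · rintro z' ⟨hz', rfl⟩
    obtain ⟨z, hz, k⟩ := mem_iUnion₂.1 (l5 z' hz' rfl)
    exact ⟨z, hz, interior_subset k hz'⟩
  · rintro _ ⟨z, hz, rfl⟩
    exact ⟨(l3 z hz).2, (l3 z hz).1⟩

/-- functions bounded by `1` on `Z` near `s` and vanishing at `s` are uniformly `< 1` on `A` near `s` -/
def SmS (Z A : Set E) : Prop :=
  ∀ s, ∀ O ∈ 𝓝 s, ∃ N ∈ 𝓝 s, ∃ c < (1 : ℝ), ∀ f : E → ℂ, AnalyticOn ℂ f (Z ∩ O) → (∀ z ∈ Z ∩ O, ‖f z‖ ≤ 1) →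
    f s = 0 → ∀ z ∈ A ∩ N, ‖f z‖ ≤ c

theorem SmS.glue {Z₁ Z₂ Z A₁ A₂ A : Set E} (h₁ : SmS Z₁ A₁) (h₂ : SmS Z₂ A₂) (s₁ : Z₁ ⊆ Z) (s₂ : Z₂ ⊆ Z)
    (hA : A ⊆ A₁ ∪ A₂) : SmS Z A := by
  intro s O hO
  obtain ⟨N₁, n₁, c₁, d₁, e₁⟩ := h₁ s O hO
  obtain ⟨N₂, n₂, c₂, d₂, e₂⟩ := h₂ s O hO
  refine ⟨N₁ ∩ N₂, inter_mem n₁ n₂, max c₁ c₂, max_lt d₁ d₂, fun f f1 f2 f3 z hz => ?_⟩
  rcases hA hz.1 with k | k
  · exact (e₁ f (f1.mono (inter_subset_inter_left _ s₁)) (fun z hz => f2 z ⟨s₁ hz.1, hz.2⟩) f3 z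
      ⟨k, hz.2.1⟩).trans (le_max_left _ _)
  · exact (e₂ f (f1.mono (inter_subset_inter_left _ s₂)) (fun z hz => f2 z ⟨s₂ hz.1, hz.2⟩) f3 z
      ⟨k, hz.2.2⟩).trans (le_max_right _ _)

theorem sm_prod_le {T : Finset E} {u : E → ℂ} {m : ℕ} (hm : T.card ≤ m) (h : ∀ z ∈ T, ‖u z‖ ≤ 2) :
    ‖∏ z ∈ T, u z‖ ≤ 2 ^ m := by
  rw [norm_prod]
  refine (Finset.prod_le_prod (fun _ _ => norm_nonneg _) h).trans ?_
  rw [Finset.prod_const]
  exact pow_le_pow_right₀ one_le_two hm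

theorem sm_sch_cov {Z : Set E} (hZ : IsClosed Z) {p : E → F} (hp : Continuous p) {h : F → ℂ}
    (hh : AnalyticOnNhd ℂ h univ) (hne : ∃ w, h w ≠ 0) (hfin : ∀ w, (Z ∩ p ⁻¹' {w}).Finite)
    (hc : ∀ z ∈ Z, h (p z) ≠ 0 → SmCov Z p z) : SmS Z (Z ∩ {z | h (p z) ≠ 0}) := by
  classical
  intro s O hO
  by_cases hs : s ∈ Z
  swap
  · exact ⟨Zᶜ, hZ.isOpen_compl.mem_nhds hs, 0, one_pos, fun f _ _ _ z hz => (hz.2 hz.1.1).elim⟩
  obtain ⟨ρ, hρ, r1⟩ := nhds_basis_closedBall.mem_iff.1 (inter_mem hO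
    (((hfin (p s)).subset (sdiff_subset (t := {s}))).isClosed.isOpen_compl.mem_nhds (x := s) fun k => k.2 rfl))
  set K := Z ∩ closedBall s ρ with hKd
  have hK : IsCompact K := (isCompact_closedBall s ρ).inter_left hZ
  have hKO : K ⊆ Z ∩ O := fun z hz => ⟨hz.1, (r1 hz.2).1⟩
  have shr : ∀ W ∈ 𝓝 s, ∀ᶠ w in 𝓝 (p s), ∀ z ∈ K, p z = w → z ∈ W := fun W hW =>
    (sm_fib hK hp isOpen_interior fun z hz e => by
      have : z = s := by_contra fun k => (r1 hz.2).2 ⟨⟨hz.1, e⟩, k⟩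
      rw [this]; exact mem_interior_iff_mem_nhds.2 hW).mono fun w k z hz e => interior_subset (k z hz e)
  obtain ⟨r, hr, r2⟩ := Metric.eventually_nhds_iff_ball.1 (shr _ (ball_mem_nhds s hρ))
  set B := ball (p s) r
  set S := {w | h w = 0}
  have hB : Mfd _ B := Mfd.of_isOpen isOpen_ball
  have hBc : IsPreconnected B := (convex_ball _ _).isPreconnected
  obtain ⟨hS, hcl⟩ : Small B S ∧ ClIn B S := small_zero hB hBc (hh.analyticOn.mono (subset_univ _)) (by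
    by_contra! k
    obtain ⟨w, hw⟩ := hne
    exact hw (hh.eqOn_zero_of_preconnected_of_eventuallyEq_zero isPreconnected_univ (mem_univ (p s))
      (Eventually.mono (ball_mem_nhds _ hr) k) (mem_univ w)))
  have hd := hS.dense hB
  have loc : ∀ w₀ ∈ B \ S, _ := fun w₀ hw => sm_cov_loc hK hp (w₀ := w₀) fun z hz e => by
    obtain ⟨Γ, g1, g2, g3, g4⟩ := hc z hz.1 (e.symm ▸ hw.2)
    refine ⟨Γ, g1, g2, ?_, g4.mono fun z' k hz' => k hz'.1⟩
    filter_upwards [g3, g1.continuousAt.eventually (isOpen_ball.mem_nhds (g2.symm ▸ r2 w₀ hw.1 z hz e))] with x k1 k2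
    exact ⟨k1.1, k1.2, ball_subset_closedBall k2⟩
  obtain ⟨w₁, hw₁⟩ : (B \ S).Nonempty := closure_nonempty_iff.1 ⟨_, hd (mem_ball_self hr)⟩
  set m := (K ∩ p ⁻¹' {w₁}).ncard
  have hm : ∀ w ∈ B \ S, (K ∩ p ⁻¹' {w}).ncard = m := fun w hw => by
    refine (hS.preconn hB hBc hcl).constant (f := fun w => (K ∩ p ⁻¹' {w}).ncard) (fun w₀ hw₀ => ?_) hw hw₁
    obtain ⟨T, Γ, -, k⟩ := loc w₀ hw₀
    refine (continuousAt_const (y := T.card)).congr ?_ |>.continuousWithinAt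
    filter_upwards [k] with w k
    rw [k.2, k.1.ncard_image, ncard_coe_finset]
  have hT : ∀ w ∈ B \ S, ∃ T : Finset E, K ∩ p ⁻¹' {w} = T ∧ T.card = m := fun w hw => by
    have k : (K ∩ p ⁻¹' {w}).Finite := (hfin w).subset (inter_subset_inter_left _ inter_subset_left)
    exact ⟨k.toFinset, k.coe_toFinset.symm, by rw [← hm w hw, ncard_eq_toFinset_card _ k]⟩
  set A : ℝ := 2 ^ m with hA
  have hA0 : 0 < A := by positivity
  have key : ∀ f : E → ℂ, AnalyticOn ℂ f (Z ∩ O) → (∀ z ∈ Z ∩ O, ‖f z‖ ≤ 1) → f s = 0 → ∀ z ∈ K,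
      p z ∈ B \ S → dist (p z) (p s) ≤ r / (4 * A ^ 2) → 1 / (2 * A ^ 2) ≤ ‖1 - f z‖ := by
    intro f f1 f2 f3 z hz hpz hδ
    let P : F → ℂ := fun w => ∏ᶠ z ∈ K ∩ p ⁻¹' {w}, (1 - f z)
    have u2 : ∀ z ∈ K, ‖1 - f z‖ ≤ 2 := fun z hz =>
      (norm_sub_le _ _).trans (by have := f2 z (hKO hz); rw [norm_one]; linarith)
    have P1 : AnalyticOn ℂ P (B \ S) := fun w₀ hw₀ => by
      obtain ⟨T, Γ, k1, k2⟩ := loc w₀ hw₀
      have k3 : ∀ z ∈ T, ∀ᶠ w in 𝓝 w₀, Γ z w ∈ Z ∩ O := fun z hz => k2.mono fun w k =>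
        hKO (k.2.symm.subset (mem_image_of_mem _ hz)).1
      refine (AnalyticAt.congr (f := fun w => ∏ z ∈ T, (1 - f (Γ z w))) (T.analyticAt_fun_prod fun z hz =>
        analyticAt_const.sub (anAt_comp_param (k1 z hz) (k3 z hz) (f1 _ (k3 z hz).self_of_nhds))) ?_).analyticWithinAt
      filter_upwards [k2] with w k
      simp only [P]
      rw [k.2, finprod_mem_image k.1, finprod_mem_coe_finset]
    have P2 : ∀ w ∈ B \ S, ‖P w‖ ≤ A := fun w hw => by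
      obtain ⟨T, t1, t2⟩ := hT w hw
      simp only [P]
      rw [t1, finprod_mem_coe_finset]
      exact sm_prod_le t2.le fun z hz => u2 z (t1.symm.subset hz).1
    obtain ⟨G, G1, G2⟩ := removal hB hS hcl P1 fun x _ => ⟨univ, univ_mem, A, fun y hy => P2 y hy.1⟩
    have G3 : ∀ w ∈ B, ‖G w‖ ≤ A := fun w hw =>
      ContinuousWithinAt.closure_le (hd hw) ((G1.continuousOn w hw).mono sdiff_subset).norm continuousWithinAt_const
        fun y hy => by rw [G2 hy]; exact P2 y hy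
    have G4 : 1 / A ≤ ‖G (p s)‖ := by
      have k0 : ∀ᶠ z in 𝓝[Z ∩ O] s, ‖f z‖ < 1 / 2 :=
        (f1.continuousOn s ⟨hs, mem_of_mem_nhds hO⟩).norm.eventually (gt_mem_nhds (by simp [f3]))
      have := mem_closure_iff_nhdsWithin_neBot.1 (hd (mem_ball_self hr))
      refine ge_of_tendsto ((G1.continuousOn _ (mem_ball_self hr)).mono (sdiff_subset (t := S))).norm ?_
      filter_upwards [self_mem_nhdsWithin, mem_nhdsWithin_of_mem_nhds (shr _ (eventually_nhdsWithin_iff.1 k0))]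
        with w hw k1
      obtain ⟨T, t1, t2⟩ := hT w hw
      rw [G2 hw]
      simp only [P]
      rw [t1, finprod_mem_coe_finset, norm_prod, hA, ← t2, ← one_div_pow, ← Finset.prod_const]
      refine Finset.prod_le_prod (fun _ _ => by norm_num) fun z hz => ?_
      have k2 := t1.symm.subset hz
      have k3 := k1 z k2.1 k2.2 (hKO k2.1)
      have k4 := norm_sub_norm_le (1 : ℂ) (f z)
      rw [norm_one] at k4; linarith
    have G5 := Complex.dist_le_div_mul_dist_of_mapsTo_ball (R₂ := 2 * A) G1.differentiableOn (fun w hw => by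
      rw [mem_closedBall, dist_eq_norm]
      have := G3 w hw
      have := G3 _ (mem_ball_self hr)
      have := norm_sub_le (G w) (G (p s))
      linarith) hpz.1
    have G6 : 2 * A / r * dist (p z) (p s) ≤ 1 / (2 * A) :=
      (mul_le_mul_of_nonneg_left hδ (by positivity)).trans_eq (by field_simp; ring)
    have G7 : ‖G (p z)‖ ≤ ‖1 - f z‖ * A := by
      obtain ⟨T, t1, t2⟩ := hT _ hpz
      rw [G2 hpz]
      simp only [P]
      rw [t1, finprod_mem_coe_finset, ← Finset.mul_prod_erase T _ (t1.subset ⟨hz, rfl⟩), norm_mul]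
      exact mul_le_mul_of_nonneg_left (sm_prod_le ((Finset.card_erase_le).trans t2.le) fun z hz =>
        u2 z (t1.symm.subset (Finset.mem_of_mem_erase hz)).1) (norm_nonneg _)
    have G8 := norm_sub_norm_le (G (p s)) (G (p z))
    rw [dist_comm, dist_eq_norm] at G5
    have G9 : 1 / (2 * A) ≤ ‖1 - f z‖ * A := by
      have : 1 / A = 1 / (2 * A) + 1 / (2 * A) := by field_simp; ring
      linarith
    rw [div_le_iff₀ (by positivity)] at G9 ⊢
    linarith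
  refine ⟨closedBall s ρ ∩ p ⁻¹' (B ∩ closedBall (p s) (r / (4 * A ^ 2))), inter_mem (closedBall_mem_nhds _ hρ)
    (hp.continuousAt.preimage_mem_nhds (inter_mem (ball_mem_nhds _ hr) (closedBall_mem_nhds _ (by positivity)))),
    1 - 1 / (2 * A ^ 2), sub_lt_self _ (by positivity), fun f f1 f2 f3 z hz => ?_⟩
  obtain ⟨θ, t1, t2⟩ := Complex.exists_norm_eq_mul_self (f z)
  have k := key (fun z => θ * f z) (analyticOn_const.mul f1) (fun z hz => by rw [norm_mul, t1, one_mul]; exact f2 z hz)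
    (by simp [f3]) z ⟨hz.1.1, hz.2.1⟩ ⟨hz.2.2.1, hz.1.2⟩ hz.2.2.2
  have k2 := f2 z (hKO ⟨hz.1.1, hz.2.1⟩)
  rw [← t2, ← Complex.ofReal_one, ← Complex.ofReal_sub, Complex.norm_real, Real.norm_of_nonneg (by linarith)] at k
  linarith

open MvPolynomial in
theorem sm_closed {σ : Type} [Fintype σ] (I : Ideal (MvPolynomial σ ℂ)) : IsClosed (zeroLocus ℂ I) := by
  have : zeroLocus ℂ I = ⋂ f ∈ I, {z : σ → ℂ | aeval z f = 0} := by ext z; simp only [mem_iInter]; rfl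
  rw [this]
  exact isClosed_biInter fun f _ => isClosed_eq (continuousOn_univ.1 (sm_an_aeval f).continuousOn) continuous_const

open MvPolynomial in
/-- Noetherian induction -/
theorem sm_sch {N : ℕ} (I : Ideal (MvPolynomial (Fin N) ℂ)) : SmS (zeroLocus ℂ I) (zeroLocus ℂ I) := by
  induction I using WellFoundedGT.induction with
  | ind I ih =>
    have h1 : ∀ a, a ∉ I → SmS (zeroLocus ℂ (I ⊔ Ideal.span {a})) (zeroLocus ℂ (I ⊔ Ideal.span {a})) := fun a ha =>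
      ih _ (left_lt_sup.2 fun k => ha (k (Ideal.mem_span_singleton_self a)))
    have h2 : ∀ a, ∀ z ∈ zeroLocus ℂ I, aeval z a = 0 → z ∈ zeroLocus ℂ (I ⊔ Ideal.span {a}) := by
      intro a z hz h0 f hf
      obtain ⟨b, hb, c, hc, rfl⟩ := Submodule.mem_sup.1 hf
      obtain ⟨c, rfl⟩ := Ideal.mem_span_singleton'.1 hc
      rw [map_add, map_mul, h0, hz b hb, mul_zero, add_zero]
    by_cases hp : I.IsPrime
    · obtain ⟨ι, _, p, h, q, p1, p2, p3, p4, p5, p6, p7⟩ := sm_noe hp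
      refine (h1 q p4).glue (sm_sch_cov (sm_closed I) (continuousOn_univ.1 p1.continuousOn) p2 p3 p6 p7)
        (zeroLocus_anti_mono le_sup_left) Subset.rfl fun z hz => ?_
      by_cases k : h (p z) = 0
      · exact Or.inl (h2 q z hz (by rw [p5, k]))
      · exact Or.inr ⟨hz, k⟩
    · rcases Ideal.not_isPrime_iff.1 hp with rfl | ⟨a, ha, b, hb, hab⟩
      · exact fun s O _ => ⟨univ, univ_mem, 0, one_pos, fun f _ _ _ z hz => by simp at hz⟩
      · refine (h1 a ha).glue (h1 b hb) (zeroLocus_anti_mono le_sup_left) (zeroLocus_anti_mono le_sup_left)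
          fun z hz => ?_
        have := hz _ hab
        rw [map_mul, mul_eq_zero] at this
        exact this.imp (h2 a z hz) (h2 b z hz)

end Crest.Agent.R264
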