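import Crest.Agent.R264.Base.One
import Crest.Agent.R264.Sm.Sch

/-! Block Sm: the singular set is empty. -/

set_option autoImplicit false
set_option linter.unusedSectionVars false
open Set Filter Topology Metric Complex

namespace Crest.Agent.R264

variable {E F : Type}
  [NormedAddCommGroup E] [NormedSpace ℂ E] [NormedSpace ℝ E] [IsScalarTower ℝ ℂ E] [FiniteDimensional ℂ E]
  [NormedAddCommGroup F] [NormedSpace ℂ F] [NormedSpace ℝ F] [IsScalarTower ℝ ℂ F] [FiniteDimensional ℂ F]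

/-- manifold points -/
def SmP (X : Set E) (n : ℕ) (x : E) : Prop := ∃ O, IsOpen O ∧ x ∈ O ∧ Mfd n (X ∩ O)

theorem SmP.bih {X : Set E} {Y : Set F} {f : E → F} {g : F → E} (h : Bih X Y f g) {n : ℕ} {x : E} (hx : x ∈ X)
    (hp : SmP Y n (f x)) : SmP X n x := by
  obtain ⟨O, h1, h2, h3⟩ := hp
  obtain ⟨u, u1, u2⟩ := continuousOn_iff'.1 h.af.continuousOn O h1
  refine ⟨u, u1, (u2.subset ⟨h2, hx⟩).1, h3.bih (f := g) (g := f) ⟨h.ag.mono inter_subset_left,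
    h.af.mono inter_subset_left, fun y hy => ⟨h.mg hy.1, (u2.subset ⟨?_, h.mg hy.1⟩).1⟩,
    fun y hy => ⟨h.mf hy.1, (u2.symm.subset ⟨hy.2, hy.1⟩).1⟩, fun y hy => h.fg y hy.1, fun y hy => h.gf y hy.1⟩⟩
  rw [mem_preimage, h.fg y hy.1]; exact hy.2

theorem sm_glue {U : Set E} (hc : IsConnected U) (h : ∀ x ∈ U, ∃ n, SmP U n x) : ∃ n, Mfd n U := by
  obtain ⟨x₀, hx₀⟩ := hc.nonempty
  obtain ⟨n, hn⟩ := h x₀ hx₀
  have : U ⊆ {x | SmP U n x} := clopen_ind hc.isPreconnected ⟨x₀, hx₀, hn⟩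
    (fun x _ ⟨O, h1, h2, h3⟩ => mem_nhdsWithin_of_mem_nhds (mem_of_superset (h1.mem_nhds h2) fun y hy => ⟨O, h1, hy, h3⟩))
    fun x hx hf => by
      obtain ⟨m, O, h1, h2, h3⟩ := h x hx
      obtain ⟨y, ⟨O', k1, k2, k3⟩, y1, y2⟩ := (hf.and_eventually (inter_mem_nhdsWithin U (h1.mem_nhds h2))).exists
      have k4 := k3.inter h1
      rw [inter_right_comm] at k4
      obtain rfl := (h3.inter k1).dim_unique k4 ⟨y, ⟨y1, y2⟩, k2⟩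
      exact ⟨O, h1, h2, h3⟩
  exact ⟨n, Mfd.of_local fun x hx => let ⟨O, h1, h2, h3⟩ := this hx; ⟨O, h1.mem_nhds h2, h3⟩⟩

/-- Harnack: a rotation invariant family of functions bounded by `1` on a connected manifold -/
theorem sm_harn {n : ℕ} {N : Set E} (hN : Mfd n N) (hc : IsPreconnected N) {𝓕 : Set (E → ℂ)}
    (h1 : ∀ f ∈ 𝓕, AnalyticOn ℂ f N ∧ ∀ z ∈ N, ‖f z‖ ≤ 1) (h2 : ∀ f ∈ 𝓕, ∀ θ : ℂ, ‖θ‖ = 1 → (fun z => θ * f z) ∈ 𝓕)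
    {y : E} (hy : y ∈ N) {c : ℝ} (hc1 : c < 1) (h3 : ∀ f ∈ 𝓕, ‖f y‖ ≤ c) {x : E} (hx : x ∈ N) :
    ∃ O ∈ 𝓝 x, ∃ c' < (1 : ℝ), ∀ f ∈ 𝓕, ∀ z ∈ N ∩ O, ‖f z‖ ≤ c' := by
  have k0 : ∀ f ∈ 𝓕, ∀ ε : ℝ, ∀ z ∈ N, ε ≤ (1 + ε - f z).re := fun f hf ε z hz => by
    have := (re_le_norm (f z)).trans ((h1 f hf).2 z hz)
    simp; linarith
  obtain ⟨O, hO, C, hC⟩ := sect_harnack hN hc (J := {p : (E → ℂ) × ℝ // p.1 ∈ 𝓕 ∧ 0 < p.2}) (l := ⊤)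
    (f := fun j z => I / (1 + j.1.2 - j.1.1 z)) (Eventually.of_forall fun j => ⟨analyticOn_const.div
      (analyticOn_const.sub (h1 _ j.2.1).1) fun z hz k => by
        have := k0 _ j.2.1 j.1.2 z hz
        rw [k, zero_re] at this
        exact j.2.2.not_ge this, fun z hz => by
        have := j.2.2.le.trans (k0 _ j.2.1 j.1.2 z hz)
        change -(_ / 2) ≤ im _
        refine le_trans (neg_nonpos.2 (by positivity)) ?_
        rw [div_im, I_im, I_re, one_mul, zero_mul, zero_div, sub_zero]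
        exact div_nonneg this (normSq_nonneg _)⟩) hy (y := fun _ => y)
    (tendsto_nhdsWithin_iff.2 ⟨tendsto_const_nhds, Eventually.of_forall fun _ => hy⟩)
    (M := 1 / (1 - c)) (Eventually.of_forall fun j => by
      rw [norm_div, norm_I]
      refine one_div_le_one_div_of_le (by linarith) (le_trans ?_ (re_le_norm _))
      have := (re_le_norm _).trans (h3 _ j.2.1)
      have := j.2.2
      simp; linarith) x hx
  set D := max C 1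
  have hD : 0 < D := lt_max_of_lt_right one_pos
  refine ⟨O, hO, 1 - 1 / (2 * D), sub_lt_self _ (by positivity), fun f hf z hz => ?_⟩
  obtain ⟨θ, t1, t2⟩ := exists_norm_eq_mul_self (f z)
  have k1 := (eventually_top.1 hC ⟨(fun z => θ * f z, 1 / (2 * D)), h2 f hf θ t1, by positivity⟩ z hz).trans
    (le_max_left C 1)
  have k2 := (h1 f hf).2 z hz.1
  have k3 : 0 < 1 / (2 * D) := by positivity
  simp only at k1
  rw [← t2, ← ofReal_one, ← ofReal_add, ← ofReal_sub, norm_div, norm_I, norm_real, Real.norm_of_nonneg (by linarith),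
    one_div_le (by linarith) hD] at k1
  have : 1 / D = 1 / (2 * D) + 1 / (2 * D) := by field_simp; ring
  linarith

theorem sm_abs {U : Set E} (hc : IsPreconnected U) (hL : Coc U)
    (hS : ∀ s ∈ U, ∃ N ∈ 𝓝 s, ∃ c < (1 : ℝ), ∀ f : E → ℂ, AnalyticOn ℂ f U → (∀ z ∈ U, ‖f z‖ ≤ 1) → f s = 0 →
      ∀ z ∈ U ∩ N, ‖f z‖ ≤ c)
    {q : E → ℂ} (q1 : AnalyticOn ℂ q U) (q2 : BddAbove ((fun z => ‖q z‖) '' U)) (q3 : ∃ x ∈ U, q x ≠ 0)
    (q4 : ∀ x ∈ U, q x ≠ 0 → ∃ n, SmP U n x) : ∀ x ∈ U, ∃ n, SmP U n x := by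
  intro s hs
  by_contra hns
  let 𝓕 : Set (E → ℂ) := {f | AnalyticOn ℂ f U ∧ (∀ z ∈ U, ‖f z‖ ≤ 1) ∧ ∀ z ∈ U, (¬ ∃ n, SmP U n z) → f z = 0}
  let A : Set E := {x | ∃ N ∈ 𝓝 x, ∃ c < (1 : ℝ), ∀ f ∈ 𝓕, ∀ z ∈ U ∩ N, ‖f z‖ ≤ c}
  have h1 : ∀ x ∈ U, (¬ ∃ n, SmP U n x) → x ∈ A := fun x hx k =>
    let ⟨N, n1, c, c1, c2⟩ := hS x hx
    ⟨N, n1, c, c1, fun f hf => c2 f hf.1 hf.2.1 (hf.2.2 x hx k)⟩
  have h2 : U ⊆ A := clopen_ind hc ⟨s, hs, h1 s hs hns⟩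
    (fun x _ ⟨N, n1, k⟩ => mem_nhdsWithin_of_mem_nhds ((eventually_mem_nhds_iff.2 n1).mono fun y hy => ⟨N, hy, k⟩))
    fun x hx hf => by
      by_cases k : ∃ n, SmP U n x
      swap
      · exact h1 x hx k
      obtain ⟨n, O, o1, o2, o3⟩ := k
      obtain ⟨O', p1, p2, -, p3, -⟩ := o3.nbhd ⟨hx, o2⟩ univ_mem
      obtain ⟨y, ⟨N, n1, c, c1, c2⟩, y1, y2⟩ :=
        (hf.and_eventually (inter_mem_nhdsWithin U ((o1.inter p1).mem_nhds ⟨o2, p2⟩))).exists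
      obtain ⟨O'', r1, c', r2, r3⟩ := sm_harn (𝓕 := 𝓕) (o3.inter p1) p3
        (fun f hf => ⟨hf.1.mono fun z hz => hz.1.1, fun z hz => hf.2.1 z hz.1.1⟩)
        (fun f hf θ hθ => ⟨analyticOn_const.mul hf.1, fun z hz => by rw [norm_mul, hθ, one_mul]; exact hf.2.1 z hz,
          fun z hz k => by simp only [hf.2.2 z hz k, mul_zero]⟩) ⟨⟨y1, y2.1⟩, y2.2⟩ c1
        (fun f hf => c2 f hf y ⟨y1, mem_of_mem_nhds n1⟩) ⟨⟨hx, o2⟩, p2⟩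
      exact ⟨O ∩ O' ∩ O'', inter_mem ((o1.inter p1).mem_nhds ⟨o2, p2⟩) r1, c', r2,
        fun f hf z hz => r3 f hf z ⟨⟨⟨hz.1, hz.2.1.1⟩, hz.2.1.2⟩, hz.2.2⟩⟩
  obtain ⟨K, k1, k2, k3⟩ := hL
  obtain ⟨c, c1, c2⟩ : ∃ c < (1 : ℝ), ∀ f ∈ 𝓕, ∀ z ∈ U ∩ K, ‖f z‖ ≤ c :=
    k1.induction_on (p := fun T => ∃ c < (1 : ℝ), ∀ f ∈ 𝓕, ∀ z ∈ U ∩ T, ‖f z‖ ≤ c)
      ⟨0, one_pos, fun _ _ _ hz => hz.2.elim⟩
      (fun _ _ hst ⟨c, c1, c2⟩ => ⟨c, c1, fun f hf z hz => c2 f hf z ⟨hz.1, hst hz.2⟩⟩)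
      (fun _ _ ⟨c, c1, c2⟩ ⟨d, d1, d2⟩ => ⟨max c d, max_lt c1 d1, fun f hf z hz => hz.2.elim
        (fun k => (c2 f hf z ⟨hz.1, k⟩).trans (le_max_left _ _)) fun k => (d2 f hf z ⟨hz.1, k⟩).trans (le_max_right _ _)⟩)
      fun x hx => let ⟨N, n1, k⟩ := h2 (k2 hx); ⟨N, mem_nhdsWithin_of_mem_nhds n1, k⟩
  have h3 : ∀ f ∈ 𝓕, ∀ z ∈ U, ‖f z‖ ≤ c := fun f hf z hz => by
    obtain ⟨γ, γ', b, hb⟩ := k3 z hz
    have := c2 (fun y => f (γ' y)) ⟨hf.1.comp b.ag b.mg, fun y hy => hf.2.1 _ (b.mg hy), fun y hy k =>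
      hf.2.2 _ (b.mg hy) fun ⟨n, hn⟩ => k ⟨n, SmP.bih b.symm hy hn⟩⟩ (γ z) ⟨b.mf hz, hb⟩
    rwa [b.gf z hz] at this
  obtain ⟨x, hx, hx0⟩ := q3
  set M := sSup ((fun z => ‖q z‖) '' U)
  have m1 : ∀ z ∈ U, ‖q z‖ ≤ M := fun z hz => le_csSup q2 (mem_image_of_mem _ hz)
  have m2 : 0 < M := (norm_pos_iff.2 hx0).trans_le (m1 x hx)
  have m3 : ∀ z, ‖q z / M‖ = ‖q z‖ / M := fun z => by rw [norm_div, norm_real, Real.norm_of_nonneg m2.le]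
  have m4 := h3 (fun z => q z / M) ⟨q1.div analyticOn_const fun _ _ => ofReal_ne_zero.2 m2.ne',
    fun z hz => by rw [m3]; exact (div_le_one m2).2 (m1 z hz), fun z hz k => by
      have : q z = 0 := by_contra fun e => k (q4 z hz e)
      simp [this]⟩
  have m5 : M ≤ c * M := csSup_le ⟨_, mem_image_of_mem _ hx⟩ (by
    rintro _ ⟨z, hz, rfl⟩
    exact (div_le_iff₀ m2).1 (m3 z ▸ m4 z hz))
  nlinarith

open MvPolynomial in
/-- generic smoothness of `U`: use an associated prime `(I(U) : P)` -/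
theorem sm_gen {N : ℕ} {I : Ideal (MvPolynomial (Fin N) ℂ)} {O U : Set (Fin N → ℂ)} (hO : IsOpen O)
    (hU : U = O ∩ zeroLocus ℂ I) (hne : U.Nonempty) : ∃ q : MvPolynomial (Fin N) ℂ,
      (∃ x ∈ U, aeval x q ≠ 0) ∧ ∀ x ∈ U, aeval x q ≠ 0 → ∃ n, SmP U n x := by
  have hJ : vanishingIdeal ℂ U ≠ ⊤ := fun k => by
    obtain ⟨x, hx⟩ := hne
    have : (1 : MvPolynomial (Fin N) ℂ) ∈ vanishingIdeal ℂ U := k ▸ Submodule.mem_top
    simpa using this x hx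
  have := Ideal.Quotient.nontrivial_iff.2 hJ
  obtain ⟨𝔭, hp⟩ := associatedPrimes.nonempty (MvPolynomial (Fin N) ℂ) (MvPolynomial (Fin N) ℂ ⧸ vanishingIdeal ℂ U)
  obtain ⟨hp, P, hP⟩ := isAssociatedPrime_iff.1 hp
  obtain ⟨P, rfl⟩ := Ideal.Quotient.mk_surjective P
  have h1 : ∀ f, f ∈ 𝔭 ↔ ∀ x ∈ U, aeval x (f * P) = 0 := fun f => by
    rw [hP, Submodule.mem_colon_singleton, Submodule.mem_bot, ← mem_vanishingIdeal_iff,
      ← Ideal.Quotient.eq_zero_iff_mem]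
    rfl
  obtain ⟨ι, _, p, h, q, p1, -, -, p4, p5, -, p7⟩ := sm_noe hp
  have h2 : ∀ x ∈ U, aeval x (q * P) ≠ 0 → x ∈ zeroLocus ℂ 𝔭 := fun x hx k f hf => by
    have := (h1 f).1 hf x hx
    rw [map_mul] at this k
    exact (mul_eq_zero.1 this).resolve_right (right_ne_zero_of_mul k)
  have h3 : zeroLocus ℂ 𝔭 ⊆ zeroLocus ℂ I := zeroLocus_anti_mono fun f hf => (h1 f).2 fun x hx => by
    rw [map_mul, (hU.subset hx).2 f hf, zero_mul]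
  have h4 : IsOpen {x : Fin N → ℂ | aeval x (q * P) ≠ 0} :=
    isOpen_ne_fun (continuousOn_univ.1 (sm_an_aeval _).continuousOn) continuous_const
  refine ⟨q * P, by simpa only [h1, not_forall, exists_prop] using p4, fun x hx k => ⟨_, _, h4, k,
    Mfd.of_germ (G := ι → ℂ) rfl fun z hz => ?_⟩⟩
  obtain ⟨Γ, g1, g2, g3, g4⟩ := p7 z (h2 z hz.1 hz.2) (by
    have : aeval z (q * P) ≠ 0 := hz.2
    rw [map_mul] at this
    rw [← p5]; exact left_ne_zero_of_mul this)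
  refine ⟨Γ, p, p1 z trivial, g1, ?_, ?_⟩
  · filter_upwards [g3, g1.continuousAt.eventually ((hO.inter h4).mem_nhds (g2.symm ▸ ⟨(hU.subset hz.1).1, hz.2⟩))]
      with v v1 v2
    exact ⟨⟨hU.symm.subset ⟨v2.1, h3 v1.2⟩, v2.2⟩, v1.1⟩
  · filter_upwards [self_mem_nhdsWithin, mem_nhdsWithin_of_mem_nhds g4] with y y1 y2
    exact y2 (h2 y y1.1 y1.2)

end Crest.Agent.R264
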